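import Mathlib

/-!
# S0329 (row 211, package P7): lifting the planar square-tile cover (S0326) to `ℝ³`

Everything here is parametric in the two inputs owned by other packages:
* `ParAreaLE` : the area of a parallelogram in `ℝ³` is at most `√(‖a‖²‖b‖² - ⟪a,b⟫²)` (package P1);
* the statement of S0326 (package P6).
-/

set_option autoImplicit false
open MeasureTheory
open scoped ENNReal

namespace Crest.Agent.S0329.Helper70

abbrev E2 : Type := EuclideanSpace ℝ (Fin 2)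
abbrev E3 : Type := EuclideanSpace ℝ (Fin 3)

/-- Upper bound for the area of a parallelogram in `ℝ³` (supplied by package P1). -/
def ParAreaLE : Prop :=
  ∀ c a b : E3,
    μHE[2] {x : E3 | ∃ s ∈ Set.Icc (0 : ℝ) 1, ∃ t ∈ Set.Icc (0 : ℝ) 1, x = c + s • a + t • b} ≤
      ENNReal.ofReal (Real.sqrt (‖a‖ ^ 2 * ‖b‖ ^ 2 - (inner ℝ a b) ^ 2))

theorem inner3 (v w : E3) : inner ℝ v w = v 0 * w 0 + v 1 * w 1 + v 2 * w 2 := by
  simp [PiLp.inner_apply, Fin.sum_univ_three]; ring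

theorem inner2 (v w : E2) : inner ℝ v w = v 0 * w 0 + v 1 * w 1 := by
  simp [PiLp.inner_apply, Fin.sum_univ_two]; ring

theorem normsq2 (v : E2) : ‖v‖ ^ 2 = v 0 ^ 2 + v 1 ^ 2 := by
  simp [EuclideanSpace.norm_sq_eq, Fin.sum_univ_two]

/-- The lift `(x₀, ξ) ↦ (x₀, ξ₀, h ξ₁)`. -/
noncomputable def lift (h x0 : ℝ) (ξ : E2) : E3 := !₂[x0, ξ 0, h * ξ 1]

@[simp] theorem lift_zero (h x0 : ℝ) (ξ : E2) : lift h x0 ξ 0 = x0 := by simp [lift]
@[simp] theorem lift_one (h x0 : ℝ) (ξ : E2) : lift h x0 ξ 1 = ξ 0 := by simp [lift]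
@[simp] theorem lift_two (h x0 : ℝ) (ξ : E2) : lift h x0 ξ 2 = h * ξ 1 := by simp [lift]

theorem lift_comb (h x s t : ℝ) (c a b g : E2) :
    lift h x (c + s • a + t • b + x • g) =
      lift h 0 c + s • lift h 0 a + t • lift h 0 b + x • lift h 1 g := by
  ext i; fin_cases i <;> simp; ring

/-- Squared norm of the lifted velocity `(1, g₀, h g₁)`. -/
noncomputable def NN (h : ℝ) (g : E2) : ℝ := 1 + (g 0) ^ 2 + h ^ 2 * (g 1) ^ 2

theorem NN_pos (h : ℝ) (g : E2) : 0 < NN h g := by unfold NN; positivity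

theorem inner_G (h : ℝ) (g : E2) : inner ℝ (lift h 1 g) (lift h 1 g) = NN h g := by
  rw [inner3]; simp [NN]; ring

/-- Projection along `G` (with `N = ‖G‖²`). -/
noncomputable def pr (G : E3) (N : ℝ) (z : E3) : E3 := z - (inner ℝ z G / N) • G

theorem pr_comb (G : E3) (N : ℝ) (hN : N ≠ 0) (hG : inner ℝ G G = N) (C A B : E3) (s t τ : ℝ) :
    pr G N (C + s • A + t • B + τ • G) = pr G N C + s • pr G N A + t • pr G N B := by
  unfold pr
  simp only [inner_add_left, inner_smul_left, hG, RCLike.conj_to_real]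
  have : (inner ℝ C G + s * inner ℝ A G + t * inner ℝ B G + τ * N) / N =
      inner ℝ C G / N + s * (inner ℝ A G / N) + t * (inner ℝ B G / N) + τ := by
    field_simp
  rw [this]
  module

theorem inner_pr_G (G : E3) (N : ℝ) (hN : N ≠ 0) (hG : inner ℝ G G = N) (z : E3) :
    inner ℝ (pr G N z) G = 0 := by
  unfold pr
  simp only [inner_sub_left, inner_smul_left, hG, RCLike.conj_to_real]
  field_simp
  ring

theorem pr_of_orth (G : E3) (N : ℝ) (x : E3) (hx : inner ℝ x G = 0) : pr G N x = x := by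
  unfold pr; simp [hx]

theorem inner_pr_pr (G : E3) (N : ℝ) (hN : N ≠ 0) (hG : inner ℝ G G = N) (x y : E3) :
    inner ℝ (pr G N x) (pr G N y) = inner ℝ x y - inner ℝ x G * inner ℝ y G / N := by
  unfold pr
  simp only [inner_sub_left, inner_sub_right, inner_smul_left, inner_smul_right, hG,
    RCLike.conj_to_real, real_inner_comm G y]
  field_simp
  ring

/-- The coordinate functional: coefficient of `lift h 0 a` in the frame
`(lift h 0 a, lift h 0 b, lift h 1 g)` based at `lift h 0 c`. -/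
noncomputable def Sf (h : ℝ) (c a g : E2) (z : E3) : ℝ :=
  ((z 1 - c 0 - z 0 * g 0) * a 0 + (z 2 / h - c 1 - z 0 * g 1) * a 1) / (a 0 ^ 2 + a 1 ^ 2)

theorem continuous_Sf (h : ℝ) (c a g : E2) : Continuous (Sf h c a g) := by
  unfold Sf; fun_prop

theorem col_rel (a0 a1 b0 b1 : ℝ) (hn : a0 ^ 2 + a1 ^ 2 ≠ 0)
    (hnb : b0 ^ 2 + b1 ^ 2 = a0 ^ 2 + a1 ^ 2) (ho : a0 * b0 + a1 * b1 = 0) :
    b0 ^ 2 = a1 ^ 2 ∧ b1 ^ 2 = a0 ^ 2 ∧ a0 * a1 + b0 * b1 = 0 := by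
  have h1 : (a0 ^ 2 + a1 ^ 2) * (b0 ^ 2 - a1 ^ 2) = 0 := by
    linear_combination (a0 * b0 - a1 * b1) * ho + a1 ^ 2 * hnb
  have h2 : (a0 ^ 2 + a1 ^ 2) * (b1 ^ 2 - a0 ^ 2) = 0 := by
    linear_combination -(a0 * b0 - a1 * b1) * ho + a0 ^ 2 * hnb
  have h3 : (a0 ^ 2 + a1 ^ 2) * (a0 * a1 + b0 * b1) = 0 := by
    linear_combination (a0 * b1 + a1 * b0) * ho - a0 * a1 * hnb
  refine ⟨?_, ?_, ?_⟩
  · have := (mul_eq_zero.1 h1).resolve_left hn; linarith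
  · have := (mul_eq_zero.1 h2).resolve_left hn; linarith
  · exact (mul_eq_zero.1 h3).resolve_left hn

theorem Sf_comb_left (h : ℝ) (hh : h ≠ 0) (c a b g : E2) (hn : a 0 ^ 2 + a 1 ^ 2 ≠ 0)
    (ho : a 0 * b 0 + a 1 * b 1 = 0) (s t τ : ℝ) :
    Sf h c a g (lift h 0 c + s • lift h 0 a + t • lift h 0 b + τ • lift h 1 g) = s := by
  unfold Sf
  simp
  field_simp
  linear_combination t * ho

theorem Sf_comb_right (h : ℝ) (hh : h ≠ 0) (c a b g : E2) (hn : b 0 ^ 2 + b 1 ^ 2 ≠ 0)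
    (ho : a 0 * b 0 + a 1 * b 1 = 0) (s t τ : ℝ) :
    Sf h c b g (lift h 0 c + s • lift h 0 a + t • lift h 0 b + τ • lift h 1 g) = t := by
  unfold Sf
  simp
  field_simp
  linear_combination s * ho

theorem decomp (h : ℝ) (hh : h ≠ 0) (c a b g : E2) (hn : a 0 ^ 2 + a 1 ^ 2 ≠ 0)
    (hnb : b 0 ^ 2 + b 1 ^ 2 = a 0 ^ 2 + a 1 ^ 2) (ho : a 0 * b 0 + a 1 * b 1 = 0) (z : E3) :
    z = lift h 0 c + Sf h c a g z • lift h 0 a + Sf h c b g z • lift h 0 b + z 0 • lift h 1 g := by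
  obtain ⟨r1, r2, r3⟩ := col_rel (a 0) (a 1) (b 0) (b 1) hn hnb ho
  have hn' : b 0 ^ 2 + b 1 ^ 2 ≠ 0 := by rw [hnb]; exact hn
  ext i; fin_cases i
  · simp
  · simp [Sf]
    rw [hnb]
    field_simp
    linear_combination (-((z 1 - c 0 - z 0 * g 0) * h)) * r1 - (z 2 - h * c 1 - z 0 * h * g 1) * r3
  · simp [Sf]
    rw [hnb]
    field_simp
    linear_combination (-(h * (z 1 - c 0 - z 0 * g 0))) * r3 - (z 2 - h * c 1 - h * z 0 * g 1) * r2

theorem gram_tile (h : ℝ) (a b g : E2) (hnb : b 0 ^ 2 + b 1 ^ 2 = a 0 ^ 2 + a 1 ^ 2)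
    (ho : a 0 * b 0 + a 1 * b 1 = 0) :
    inner ℝ (pr (lift h 1 g) (NN h g) (lift h 0 a)) (pr (lift h 1 g) (NN h g) (lift h 0 a)) *
        inner ℝ (pr (lift h 1 g) (NN h g) (lift h 0 b)) (pr (lift h 1 g) (NN h g) (lift h 0 b)) -
      (inner ℝ (pr (lift h 1 g) (NN h g) (lift h 0 a)) (pr (lift h 1 g) (NN h g) (lift h 0 b))) ^ 2 =
      h ^ 2 * (a 0 ^ 2 + a 1 ^ 2) ^ 2 / NN h g := by
  have hN := (NN_pos h g).ne'
  have key : (a 0 * b 1 - a 1 * b 0) ^ 2 = (a 0 ^ 2 + a 1 ^ 2) ^ 2 := by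
    linear_combination (a 0 ^ 2 + a 1 ^ 2) * hnb - (a 0 * b 0 + a 1 * b 1) * ho
  rw [inner_pr_pr _ _ hN (inner_G h g), inner_pr_pr _ _ hN (inner_G h g),
    inner_pr_pr _ _ hN (inner_G h g), ← key]
  simp only [inner3, lift_zero, lift_one, lift_two]
  unfold NN at hN ⊢
  field_simp
  ring

/-- One tile: the sheared cylinder over a square of `ℝ²`, lifted to `ℝ³`, lies in a cylinder
over a bounded relatively open parallelogram orthogonal to the lifted velocity. -/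
theorem tile (hpar : ParAreaLE) (h : ℝ) (hh : 0 < h) (c a b g : E2) (ha : a ≠ 0)
    (hab : ‖b‖ = ‖a‖) (horth : inner ℝ a b = 0) (θ : ℝ) (hθ : 0 < θ) :
    ∃ (u : E3) (B : Set E3), ‖u‖ = 1 ∧ Bornology.IsBounded B ∧
      (∃ O : Set E3, IsOpen O ∧ B = O ∩ {x | inner ℝ x u = 0}) ∧
      (∀ (x s t : ℝ), s ∈ Set.Icc (0 : ℝ) 1 → t ∈ Set.Icc (0 : ℝ) 1 →
        ∃ y ∈ B, ∃ τ : ℝ, lift h x (c + s • a + t • b + x • g) = y + τ • u) ∧
      (μHE[2] B).toReal ≤ (1 + 2 * θ) ^ 2 * (h * (‖a‖ ^ 2 / Real.sqrt (NN h g))) := by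
  have hh' : h ≠ 0 := hh.ne'
  have hnpos : 0 < ‖a‖ ^ 2 := by positivity
  have hn : a 0 ^ 2 + a 1 ^ 2 ≠ 0 := by rw [← normsq2]; exact hnpos.ne'
  have hnb : b 0 ^ 2 + b 1 ^ 2 = a 0 ^ 2 + a 1 ^ 2 := by rw [← normsq2, ← normsq2, hab]
  have hnb' : b 0 ^ 2 + b 1 ^ 2 ≠ 0 := by rw [hnb]; exact hn
  have ho : a 0 * b 0 + a 1 * b 1 = 0 := by rw [← inner2]; exact horth
  have hNpos := NN_pos h g
  have hN : NN h g ≠ 0 := hNpos.ne'
  have hG := inner_G h g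
  have hgram := gram_tile h a b g hnb ho
  have hsq : Real.sqrt (NN h g) * Real.sqrt (NN h g) = NN h g := Real.mul_self_sqrt hNpos.le
  have hsqpos : 0 < Real.sqrt (NN h g) := Real.sqrt_pos.2 hNpos
  have hsq0 : Real.sqrt (NN h g) ≠ 0 := hsqpos.ne'
  generalize hNdef : NN h g = N at *
  generalize hGdef : lift h 1 g = G at *
  generalize hCdef : lift h 0 c = C at *
  generalize hAdef : lift h 0 a = A at *
  generalize hBdef : lift h 0 b = Bv at *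
  have h12 : (0 : ℝ) < 1 + 2 * θ := by linarith
  have hBP : {y : E3 | ∃ s ∈ Set.Ioo (-θ) (1 + θ), ∃ t ∈ Set.Ioo (-θ) (1 + θ),
      y = pr G N C + s • pr G N A + t • pr G N Bv} ⊆
      {x : E3 | ∃ s ∈ Set.Icc (0 : ℝ) 1, ∃ t ∈ Set.Icc (0 : ℝ) 1,
        x = (pr G N C - θ • pr G N A - θ • pr G N Bv) + s • ((1 + 2 * θ) • pr G N A) +
          t • ((1 + 2 * θ) • pr G N Bv)} := by
    rintro y ⟨s, hs, t, ht, rfl⟩
    refine ⟨(s + θ) / (1 + 2 * θ), ⟨div_nonneg (by linarith [hs.1]) h12.le,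
      (div_le_one h12).2 (by linarith [hs.2])⟩, (t + θ) / (1 + 2 * θ),
      ⟨div_nonneg (by linarith [ht.1]) h12.le, (div_le_one h12).2 (by linarith [ht.2])⟩, ?_⟩
    rw [smul_smul, smul_smul, div_mul_cancel₀ _ h12.ne', div_mul_cancel₀ _ h12.ne']
    module
  refine ⟨(Real.sqrt N)⁻¹ • G, {y : E3 | ∃ s ∈ Set.Ioo (-θ) (1 + θ), ∃ t ∈ Set.Ioo (-θ) (1 + θ),
      y = pr G N C + s • pr G N A + t • pr G N Bv}, ?_, ?_, ?_, ?_, ?_⟩
  · -- unit
    rw [norm_smul, norm_inv, Real.norm_eq_abs, abs_of_pos hsqpos, norm_eq_sqrt_real_inner, hG]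
    exact inv_mul_cancel₀ hsq0
  · -- bounded
    rw [isBounded_iff_forall_norm_le]
    refine ⟨‖pr G N C‖ + (1 + θ) * ‖pr G N A‖ + (1 + θ) * ‖pr G N Bv‖, ?_⟩
    rintro y ⟨s, hs, t, ht, rfl⟩
    have hs' : |s| ≤ 1 + θ := abs_le.2 ⟨by linarith [hs.1], hs.2.le⟩
    have ht' : |t| ≤ 1 + θ := abs_le.2 ⟨by linarith [ht.1], ht.2.le⟩
    calc ‖pr G N C + s • pr G N A + t • pr G N Bv‖
        ≤ ‖pr G N C‖ + ‖s • pr G N A‖ + ‖t • pr G N Bv‖ := norm_add₃_le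
      _ = ‖pr G N C‖ + |s| * ‖pr G N A‖ + |t| * ‖pr G N Bv‖ := by
          rw [norm_smul, norm_smul, Real.norm_eq_abs, Real.norm_eq_abs]
      _ ≤ _ := by gcongr
  · -- relatively open
    refine ⟨(Sf h c a g ⁻¹' Set.Ioo (-θ) (1 + θ)) ∩ (Sf h c b g ⁻¹' Set.Ioo (-θ) (1 + θ)),
      (isOpen_Ioo.preimage (continuous_Sf h c a g)).inter
        (isOpen_Ioo.preimage (continuous_Sf h c b g)), ?_⟩
    ext y
    constructor
    · rintro ⟨s, hs, t, ht, rfl⟩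
      have e0 := pr_comb G N hN hG C A Bv s t 0
      have e1 : pr G N C + s • pr G N A + t • pr G N Bv =
          C + s • A + t • Bv + (-(inner ℝ (C + s • A + t • Bv) G / N)) • G := by
        rw [← e0, zero_smul, add_zero]; unfold pr; rw [neg_smul, sub_eq_add_neg]
      refine ⟨⟨?_, ?_⟩, ?_⟩
      · show Sf h c a g _ ∈ Set.Ioo (-θ) (1 + θ)
        rw [e1, ← hCdef, ← hAdef, ← hBdef, ← hGdef, Sf_comb_left h hh' c a b g hn ho]; exact hs
      · show Sf h c b g _ ∈ Set.Ioo (-θ) (1 + θ)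
        rw [e1, ← hCdef, ← hAdef, ← hBdef, ← hGdef, Sf_comb_right h hh' c a b g hnb' ho]; exact ht
      · show inner ℝ _ ((Real.sqrt N)⁻¹ • G) = 0
        rw [← e0, inner_smul_right, inner_pr_G G N hN hG, mul_zero]
    · rintro ⟨⟨hs, ht⟩, hyu⟩
      have hyG : inner ℝ y G = 0 := by
        have hyu' : inner ℝ y ((Real.sqrt N)⁻¹ • G) = 0 := hyu
        rw [inner_smul_right] at hyu'
        exact (mul_eq_zero.1 hyu').resolve_left (inv_ne_zero hsq0)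
      have hd := decomp h hh' c a b g hn hnb ho y
      rw [hCdef, hAdef, hBdef, hGdef] at hd
      refine ⟨Sf h c a g y, hs, Sf h c b g y, ht, ?_⟩
      calc y = pr G N y := (pr_of_orth G N y hyG).symm
        _ = pr G N (C + Sf h c a g y • A + Sf h c b g y • Bv + y 0 • G) := congrArg (pr G N) hd
        _ = _ := pr_comb G N hN hG C A Bv _ _ _
  · -- covering
    intro x s t hs ht
    rw [lift_comb, hCdef, hAdef, hBdef, hGdef]
    refine ⟨pr G N C + s • pr G N A + t • pr G N Bv,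
      ⟨s, ⟨by linarith [hs.1], by linarith [hs.2]⟩, t, ⟨by linarith [ht.1], by linarith [ht.2]⟩, rfl⟩,
      inner ℝ (C + s • A + t • Bv + x • G) G / Real.sqrt N, ?_⟩
    rw [← pr_comb G N hN hG C A Bv s t x]
    unfold pr
    have hcoef : inner ℝ (C + s • A + t • Bv + x • G) G / Real.sqrt N * (Real.sqrt N)⁻¹ =
        inner ℝ (C + s • A + t • Bv + x • G) G / N := by
      rw [← div_eq_mul_inv, div_div, hsq]
    rw [smul_smul, hcoef, sub_add_cancel]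
  · -- area
    have hval : Real.sqrt (‖(1 + 2 * θ) • pr G N A‖ ^ 2 * ‖(1 + 2 * θ) • pr G N Bv‖ ^ 2 -
        (inner ℝ ((1 + 2 * θ) • pr G N A) ((1 + 2 * θ) • pr G N Bv)) ^ 2) =
        (1 + 2 * θ) ^ 2 * (h * (‖a‖ ^ 2 / Real.sqrt N)) := by
      have hexp : ‖(1 + 2 * θ) • pr G N A‖ ^ 2 * ‖(1 + 2 * θ) • pr G N Bv‖ ^ 2 -
          (inner ℝ ((1 + 2 * θ) • pr G N A) ((1 + 2 * θ) • pr G N Bv)) ^ 2 =
          ((1 + 2 * θ) ^ 2 * (h * (‖a‖ ^ 2 / Real.sqrt N))) ^ 2 := by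
        rw [← real_inner_self_eq_norm_sq, ← real_inner_self_eq_norm_sq]
        simp only [inner_smul_left, inner_smul_right, RCLike.conj_to_real]
        have e : ((1 + 2 * θ) ^ 2 * (h * (‖a‖ ^ 2 / Real.sqrt N))) ^ 2 =
            (1 + 2 * θ) ^ 4 * (h ^ 2 * (a 0 ^ 2 + a 1 ^ 2) ^ 2 / N) := by
          rw [normsq2 a]
          have : (Real.sqrt N) ^ 2 = N := by rw [sq]; exact hsq
          field_simp
          rw [this]
        rw [e, ← hgram]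
        ring
      rw [hexp]
      exact Real.sqrt_sq (by positivity)
    refine ENNReal.toReal_le_of_le_ofReal (by positivity) ?_
    calc μHE[2] {y : E3 | ∃ s ∈ Set.Ioo (-θ) (1 + θ), ∃ t ∈ Set.Ioo (-θ) (1 + θ),
          y = pr G N C + s • pr G N A + t • pr G N Bv}
        ≤ μHE[2] {x : E3 | ∃ s ∈ Set.Icc (0 : ℝ) 1, ∃ t ∈ Set.Icc (0 : ℝ) 1,
          x = (pr G N C - θ • pr G N A - θ • pr G N Bv) + s • ((1 + 2 * θ) • pr G N A) +
            t • ((1 + 2 * θ) • pr G N Bv)} := measure_mono hBP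
      _ ≤ _ := hpar _ _ _
      _ = _ := by rw [hval]

/-- The statement of S0326 (square-tile cover of a planar ruled set), as a proposition. -/
def S0326Prop : Prop :=
  ∀ (D : Set (EuclideanSpace ℝ (Fin 2))) (_ : IsCompact D)
    (V : EuclideanSpace ℝ (Fin 2) → EuclideanSpace ℝ (Fin 2)) (U : Set (EuclideanSpace ℝ (Fin 2)))
    (_ : IsOpen U) (_ : D ⊆ U) (_ : ContDiffOn ℝ 1 V U) (L h : ℝ) (_ : 0 < L) (_ : 0 < h)
    (_ : ∀ p ∈ D, LinearMap.trace ℝ _ (fderiv ℝ V p).toLinearMap = 0)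
    (_ : ∀ p ∈ D, -(L ^ 2)⁻¹ < LinearMap.det (fderiv ℝ V p).toLinearMap ∧
      LinearMap.det (fderiv ℝ V p).toLinearMap ≤ 0)
    (ε : ℝ) (_ : 0 < ε),
    ∃ (k : ℕ) (c a b g : Fin k → EuclideanSpace ℝ (Fin 2)),
      (∀ i, a i ≠ 0 ∧ ‖b i‖ = ‖a i‖ ∧ inner ℝ (a i) (b i) = 0) ∧
      {z : ℝ × EuclideanSpace ℝ (Fin 2) | ∃ p ∈ D, abs z.1 ≤ L ∧ z.2 = p + z.1 • V p} ⊆
        ⋃ i, {z : ℝ × EuclideanSpace ℝ (Fin 2) | ∃ x ∈ Set.Icc (0 : ℝ) 1, ∃ y ∈ Set.Icc (0 : ℝ) 1,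
          z.2 = c i + x • a i + y • b i + z.1 • g i} ∧
      ∑ i, ‖a i‖ ^ 2 / Real.sqrt (1 + (g i 0) ^ 2 + h ^ 2 * (g i 1) ^ 2) ≤
        (∫ p in D, 1 / Real.sqrt (1 + (V p 0) ^ 2 + h ^ 2 * (V p 1) ^ 2)) + ε

/-- The statement of S0329, as a proposition. -/
def S0329Prop : Prop :=
  ∀ (h M : ℝ) (_ : 0 < h) (_ : 0 < M) (D : Set (EuclideanSpace ℝ (Fin 2))) (_ : IsCompact D)
    (_ : volume (frontier D) = 0)
    (V : EuclideanSpace ℝ (Fin 2) → EuclideanSpace ℝ (Fin 2)) (U : Set (EuclideanSpace ℝ (Fin 2)))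
    (_ : IsOpen U) (_ : D ⊆ U) (_ : ContDiffOn ℝ 1 V U)
    (_ : ∀ p ∈ D, LinearMap.trace ℝ _ (fderiv ℝ V p).toLinearMap = 0)
    (_ : ∀ p ∈ D, -(M ^ 2)⁻¹ < LinearMap.det (fderiv ℝ V p).toLinearMap ∧
      LinearMap.det (fderiv ℝ V p).toLinearMap < 0)
    (ε : ℝ) (_ : 0 < ε),
    ∃ (k : ℕ) (u : Fin k → EuclideanSpace ℝ (Fin 3)) (B : Fin k → Set (EuclideanSpace ℝ (Fin 3))),
      (∀ i, ‖u i‖ = 1) ∧
      (∀ i, Bornology.IsBounded (B i) ∧ ∃ O : Set (EuclideanSpace ℝ (Fin 3)), IsOpen O ∧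
        B i = O ∩ {x | inner ℝ x (u i) = 0}) ∧
      {z : EuclideanSpace ℝ (Fin 3) | ∃ p ∈ D, ∃ x : ℝ, abs x ≤ M ∧
          z = !₂[x, p 0 + x * V p 0, h * (p 1 + x * V p 1)]} ⊆
        ⋃ i, {z : EuclideanSpace ℝ (Fin 3) | ∃ y ∈ B i, ∃ τ : ℝ, z = y + τ • u i} ∧
      ∑ i, (μHE[2] (B i)).toReal ≤
        h * (∫ p in D, 1 / Real.sqrt (1 + (V p 0) ^ 2 + h ^ 2 * (V p 1) ^ 2)) + ε

/-- S0329 from the parallelogram area bound and S0326. -/
theorem main_of (hpar : ParAreaLE) (h326 : S0326Prop) : S0329Prop := by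
  intro h M hh hM D hD _hbd V U hU hDU hV htr hdet ε hε
  have hε' : 0 < ε / (2 * h) := by positivity
  obtain ⟨k, c, a, b, g, hsq, hcov, hsum⟩ := h326 D hD V U hU hDU hV M h hM hh htr
    (fun p hp => ⟨(hdet p hp).1, (hdet p hp).2.le⟩) (ε / (2 * h)) hε'
  generalize hI : (∫ p in D, 1 / Real.sqrt (1 + (V p 0) ^ 2 + h ^ 2 * (V p 1) ^ 2)) = I at hsum ⊢
  generalize hε'def : ε / (2 * h) = ε' at hsum hε'
  have hden : 0 < 16 * h * (|I| + ε') := by positivity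
  obtain ⟨θ, hθ, hθ1, hθ2⟩ : ∃ θ : ℝ, 0 < θ ∧ θ ≤ 1 ∧ θ ≤ ε / (16 * h * (|I| + ε')) :=
    ⟨min 1 (ε / (16 * h * (|I| + ε'))), lt_min one_pos (div_pos hε hden), min_le_left _ _,
      min_le_right _ _⟩
  have htile := fun i => tile hpar h hh (c i) (a i) (b i) (g i) (hsq i).1 (hsq i).2.1 (hsq i).2.2 θ hθ
  choose u B hu hB hO hcovB harea using htile
  refine ⟨k, u, B, hu, fun i => ⟨hB i, hO i⟩, ?_, ?_⟩
  · rintro z ⟨p, hp, x, hx, rfl⟩
    have hmem : ((x, p + x • V p) : ℝ × EuclideanSpace ℝ (Fin 2)) ∈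
        {z : ℝ × EuclideanSpace ℝ (Fin 2) | ∃ p ∈ D, |z.1| ≤ M ∧ z.2 = p + z.1 • V p} :=
      ⟨p, hp, hx, rfl⟩
    obtain ⟨i, s, hs, t, ht, heq⟩ := Set.mem_iUnion.1 (hcov hmem)
    obtain ⟨y, hy, τ, hτ⟩ := hcovB i x s t hs ht
    refine Set.mem_iUnion.2 ⟨i, y, hy, τ, ?_⟩
    have heq' : p + x • V p = c i + s • a i + t • b i + x • g i := heq
    rw [← hτ, ← heq']
    ext j; fin_cases j <;> simp [lift]
  · have h1 : h * ε' = ε / 2 := by rw [← hε'def]; field_simp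
    have h2 : θ * (16 * h * (|I| + ε')) ≤ ε := by rwa [le_div_iff₀ hden] at hθ2
    have h3 : 0 ≤ I + ε' := le_trans (Finset.sum_nonneg (fun i _ => by positivity)) hsum
    have h4 : I + ε' ≤ |I| + ε' := by linarith [le_abs_self I]
    have h5 : (4 * θ + 4 * θ ^ 2) * (h * (I + ε')) ≤ 8 * θ * (h * (|I| + ε')) := by
      apply mul_le_mul _ _ (by positivity) (by positivity)
      · nlinarith
      · gcongr
    calc ∑ i, (μHE[2] (B i)).toReal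
        ≤ ∑ i, (1 + 2 * θ) ^ 2 * (h * (‖a i‖ ^ 2 / Real.sqrt (NN h (g i)))) :=
          Finset.sum_le_sum (fun i _ => harea i)
      _ = (1 + 2 * θ) ^ 2 * h *
            ∑ i, ‖a i‖ ^ 2 / Real.sqrt (1 + (g i 0) ^ 2 + h ^ 2 * (g i 1) ^ 2) := by
          rw [Finset.mul_sum]; refine Finset.sum_congr rfl (fun i _ => ?_); unfold NN; ring
      _ ≤ (1 + 2 * θ) ^ 2 * h * (I + ε') := by gcongr
      _ = h * I + h * ε' + (4 * θ + 4 * θ ^ 2) * (h * (I + ε')) := by ring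
      _ ≤ h * I + ε := by
          have : 8 * θ * (h * (|I| + ε')) = θ * (16 * h * (|I| + ε')) / 2 := by ring
          linarith

end Crest.Agent.S0329.Helper70
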