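import Mathlib
import Crest.Agent.Lib.S0324.Area
import Crest.Agent.Lib.S0329.Helper70Core

/-!
# S0329 (row 211, package P7): S0329 from S0326 alone

The parallelogram area bound is discharged by `Crest.Agent.S0324.muHE_parallelogram` (package P1).
-/

set_option autoImplicit false
open MeasureTheory
open scoped ENNReal

namespace Crest.Agent.S0329.Helper70

/-- S0329 follows from S0326. -/
theorem main_of326 (h326 : S0326Prop) : S0329Prop :=
  main_of (fun c a b => (Crest.Agent.S0324.muHE_parallelogram c a b).le) h326

end Crest.Agent.S0329.Helper70
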