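import Mathlib
import Crest.Agent.Lib.S0324.Area

/-!
# Row 211, package P7 (backup implementation by helper92): S0329 from S0326

`main_of` derives the statement of S0329 (open-base cylinder cover of the ruled set in `ℝ³`)
from the statement of S0326 (square-tile cover of the planar ruled set), taken as a hypothesis.

Each square `c + [0,1] a + [0,1] b` with velocity `g` is lifted to `ℝ³` by
`(x, ξ) ↦ (x, ξ₀, h ξ₁)`; the sheared cylinder becomes a cylinder with axis `(1, g₀, h g₁)`, and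
its base is a slightly enlarged open parallelogram in the plane orthogonal to the axis.
-/

set_option autoImplicit false
open MeasureTheory
open scoped ENNReal

namespace Crest.Agent.S0329.Helper92

open Crest.Agent.S0324

/-- The Euclidean plane. -/
abbrev E2 : Type := EuclideanSpace ℝ (Fin 2)

/-! ### Coordinates -/

theorem inner3 (x y : E3) : inner ℝ x y = x 0 * y 0 + x 1 * y 1 + x 2 * y 2 := by
  simp [PiLp.inner_apply, Fin.sum_univ_three, mul_comm]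

theorem normsq3 (x : E3) : ‖x‖ ^ 2 = x 0 ^ 2 + x 1 ^ 2 + x 2 ^ 2 := by
  rw [← real_inner_self_eq_norm_sq, inner3]; ring

theorem inner2 (x y : E2) : inner ℝ x y = x 0 * y 0 + x 1 * y 1 := by
  simp [PiLp.inner_apply, Fin.sum_univ_two, mul_comm]

theorem normsq2 (x : E2) : ‖x‖ ^ 2 = x 0 ^ 2 + x 1 ^ 2 := by
  rw [← real_inner_self_eq_norm_sq, inner2]; ring

theorem ext3 {x y : E3} (h0 : x 0 = y 0) (h1 : x 1 = y 1) (h2 : x 2 = y 2) : x = y := by
  ext i; fin_cases i <;> assumption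

/-! ### Pure real algebra: an orthogonal pair of equal length in the plane -/

/-- Columns of a scaled rotation matrix. -/
theorem cols_of_rows {a0 a1 b0 b1 P : ℝ} (hP : P ≠ 0) (ha : a0 ^ 2 + a1 ^ 2 = P)
    (hb : b0 ^ 2 + b1 ^ 2 = P) (hab : a0 * b0 + a1 * b1 = 0) :
    a0 ^ 2 + b0 ^ 2 = P ∧ a1 ^ 2 + b1 ^ 2 = P ∧ a0 * a1 + b0 * b1 = 0 := by
  have e1 : (b0 ^ 2 - a1 ^ 2) * P = 0 := by
    have : (b0 ^ 2 - a1 ^ 2) * P = (a0 * b0 - a1 * b1) * (a0 * b0 + a1 * b1) := by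
      linear_combination (-(b0 ^ 2)) * ha + (a1 ^ 2) * hb
    rw [this, hab, mul_zero]
  have e2 : (a0 * a1 + b0 * b1) * P = 0 := by
    have : (a0 * a1 + b0 * b1) * P = (a0 * b0 + a1 * b1) * (a1 * b0 + a0 * b1) := by
      linear_combination (-(a0 * a1)) * hb - (b0 * b1) * ha
    rw [this, hab, zero_mul]
  have e1' : b0 ^ 2 = a1 ^ 2 := by
    have := (mul_eq_zero.mp e1).resolve_right hP
    linarith
  have e2' : a0 * a1 + b0 * b1 = 0 := (mul_eq_zero.mp e2).resolve_right hP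
  refine ⟨by linarith, by linarith, e2'⟩

theorem recon0 {a0 a1 b0 b1 P : ℝ} (hP : P ≠ 0) (ha : a0 ^ 2 + a1 ^ 2 = P)
    (hb : b0 ^ 2 + b1 ^ 2 = P) (hab : a0 * b0 + a1 * b1 = 0) (X0 X1 : ℝ) :
    (X0 * a0 + X1 * a1) / P * a0 + (X0 * b0 + X1 * b1) / P * b0 = X0 := by
  obtain ⟨c1, c2, c3⟩ := cols_of_rows hP ha hb hab
  field_simp
  linear_combination X0 * c1 + X1 * c3

theorem recon1 {a0 a1 b0 b1 P : ℝ} (hP : P ≠ 0) (ha : a0 ^ 2 + a1 ^ 2 = P)
    (hb : b0 ^ 2 + b1 ^ 2 = P) (hab : a0 * b0 + a1 * b1 = 0) (X0 X1 : ℝ) :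
    (X0 * a0 + X1 * a1) / P * a1 + (X0 * b0 + X1 * b1) / P * b1 = X1 := by
  obtain ⟨c1, c2, c3⟩ := cols_of_rows hP ha hb hab
  field_simp
  linear_combination X1 * c2 + X0 * c3

/-! ### The lift to `ℝ³` -/

/-- Lift of a planar vector: `(v₀, v₁) ↦ (0, v₀, h v₁)`. -/
noncomputable def lift (h : ℝ) (v : E2) : E3 := !₂[0, v 0, h * v 1]

/-- Axis of the lifted sheared cylinder with velocity `g`: `(1, g₀, h g₁)`. -/
noncomputable def axis (h : ℝ) (g : E2) : E3 := !₂[1, g 0, h * g 1]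

/-- The unit direction of the axis. -/
noncomputable def dir (h : ℝ) (g : E2) : E3 := ‖axis h g‖⁻¹ • axis h g

/-- Coordinate functional along `a` (an affine function of `z`). -/
noncomputable def coord (h : ℝ) (c a g : E2) (z : E3) : ℝ :=
  ((z 1 - z 0 * g 0 - c 0) * a 0 + (z 2 / h - z 0 * g 1 - c 1) * a 1) / ‖a‖ ^ 2

/-- The open set cutting out the base. -/
def openSet (h θ : ℝ) (c a b g : E2) : Set E3 :=
  {z | coord h c a g z ∈ Set.Ioo (-θ) (1 + θ) ∧ coord h c b g z ∈ Set.Ioo (-θ) (1 + θ)}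

/-- The base: a bounded relatively open subset of the plane orthogonal to the axis. -/
def base (h θ : ℝ) (c a b g : E2) : Set E3 :=
  openSet h θ c a b g ∩ {x | inner ℝ x (dir h g) = 0}

/-- Orthogonal projection along the unit vector `u`. -/
noncomputable def prj (u v : E3) : E3 := v - inner ℝ v u • u

@[simp] theorem lift_zero (h : ℝ) (v : E2) : lift h v 0 = 0 := by simp [lift]
@[simp] theorem lift_one (h : ℝ) (v : E2) : lift h v 1 = v 0 := by simp [lift]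
@[simp] theorem lift_two (h : ℝ) (v : E2) : lift h v 2 = h * v 1 := by simp [lift]
@[simp] theorem axis_zero (h : ℝ) (g : E2) : axis h g 0 = 1 := by simp [axis]
@[simp] theorem axis_one (h : ℝ) (g : E2) : axis h g 1 = g 0 := by simp [axis]
@[simp] theorem axis_two (h : ℝ) (g : E2) : axis h g 2 = h * g 1 := by simp [axis]

theorem normsq_axis (h : ℝ) (g : E2) : ‖axis h g‖ ^ 2 = 1 + g 0 ^ 2 + h ^ 2 * g 1 ^ 2 := by
  rw [normsq3]; simp; ring

theorem norm_axis_pos (h : ℝ) (g : E2) : 0 < ‖axis h g‖ := by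
  have h1 := normsq_axis h g
  have h2 : 0 < ‖axis h g‖ ^ 2 := by rw [h1]; positivity
  rcases (norm_nonneg (axis h g)).lt_or_eq with h3 | h3
  · exact h3
  · rw [← h3] at h2; norm_num at h2

theorem norm_axis (h : ℝ) (g : E2) :
    ‖axis h g‖ = Real.sqrt (1 + g 0 ^ 2 + h ^ 2 * g 1 ^ 2) := by
  rw [← normsq_axis, Real.sqrt_sq (norm_nonneg _)]

theorem norm_dir (h : ℝ) (g : E2) : ‖dir h g‖ = 1 := by
  unfold dir
  rw [norm_smul, norm_inv, norm_norm, inv_mul_cancel₀ (norm_axis_pos h g).ne']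

theorem axis_eq (h : ℝ) (g : E2) : axis h g = ‖axis h g‖ • dir h g := by
  unfold dir
  rw [smul_smul, mul_inv_cancel₀ (norm_axis_pos h g).ne', one_smul]

theorem isOpen_openSet (h θ : ℝ) (c a b g : E2) : IsOpen (openSet h θ c a b g) := by
  have h1 : Continuous (coord h c a g) := by unfold coord; fun_prop
  have h2 : Continuous (coord h c b g) := by unfold coord; fun_prop
  exact (isOpen_Ioo.preimage h1).inter (isOpen_Ioo.preimage h2)

/-- Every point of `ℝ³` in the oblique frame `(lift a, lift b, axis)` based at `lift c`. -/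
theorem decomp {h : ℝ} (hh : h ≠ 0) (c g : E2) {a b : E2} (ha : a ≠ 0) (hba : ‖b‖ = ‖a‖)
    (hab : inner ℝ a b = 0) (z : E3) :
    z = lift h c + coord h c a g z • lift h a + coord h c b g z • lift h b + z 0 • axis h g := by
  have hP : ‖a‖ ^ 2 ≠ 0 := pow_ne_zero 2 (norm_ne_zero_iff.mpr ha)
  have h1 : a 0 ^ 2 + a 1 ^ 2 = ‖a‖ ^ 2 := (normsq2 a).symm
  have h2 : b 0 ^ 2 + b 1 ^ 2 = ‖a‖ ^ 2 := by rw [← hba]; exact (normsq2 b).symm
  have h3 : a 0 * b 0 + a 1 * b 1 = 0 := by rw [← inner2]; exact hab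
  have r0 := recon0 hP h1 h2 h3 (z 1 - z 0 * g 0 - c 0) (z 2 / h - z 0 * g 1 - c 1)
  have r1 := recon1 hP h1 h2 h3 (z 1 - z 0 * g 0 - c 0) (z 2 / h - z 0 * g 1 - c 1)
  unfold coord
  rw [hba]
  refine ext3 ?_ ?_ ?_
  · simp
  · simp only [PiLp.add_apply, PiLp.smul_apply, smul_eq_mul, lift_one, axis_one]
    linear_combination -r0
  · simp only [PiLp.add_apply, PiLp.smul_apply, smul_eq_mul, lift_two, axis_two]
    have e : h * (z 2 / h) = z 2 := by field_simp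
    linear_combination (-h) * r1 - e

/-- Uniqueness of the frame coordinates. -/
theorem coord_of_eq {h : ℝ} (hh : h ≠ 0) (c g : E2) {a b : E2} (ha : a ≠ 0) (hba : ‖b‖ = ‖a‖)
    (hab : inner ℝ a b = 0) {z : E3} {s t x : ℝ}
    (hz : z = lift h c + s • lift h a + t • lift h b + x • axis h g) :
    coord h c a g z = s ∧ coord h c b g z = t := by
  have hP : ‖a‖ ^ 2 ≠ 0 := pow_ne_zero 2 (norm_ne_zero_iff.mpr ha)
  have h1 : a 0 ^ 2 + a 1 ^ 2 = ‖a‖ ^ 2 := (normsq2 a).symm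
  have h2 : b 0 ^ 2 + b 1 ^ 2 = ‖a‖ ^ 2 := by rw [← hba]; exact (normsq2 b).symm
  have h3 : a 0 * b 0 + a 1 * b 1 = 0 := by rw [← inner2]; exact hab
  have z0 : z 0 = x := by rw [hz]; simp
  have z1 : z 1 = c 0 + s * a 0 + t * b 0 + x * g 0 := by rw [hz]; simp
  have z2 : z 2 / h = c 1 + s * a 1 + t * b 1 + x * g 1 := by
    rw [hz]; simp; field_simp
  unfold coord
  rw [hba, z0, z1, z2]
  constructor
  · rw [div_eq_iff hP]
    linear_combination s * h1 + t * h3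
  · rw [div_eq_iff hP]
    linear_combination t * h2 + s * h3

/-- A point of the lifted sheared cylinder lies in the cylinder over the base. -/
theorem cover_piece {h : ℝ} (hh : h ≠ 0) (c g : E2) {a b : E2} (ha : a ≠ 0)
    (hba : ‖b‖ = ‖a‖) (hab : inner ℝ a b = 0) {θ : ℝ} (hθ : 0 < θ) {z : E3} {s t x : ℝ}
    (hs : s ∈ Set.Icc (0 : ℝ) 1) (ht : t ∈ Set.Icc (0 : ℝ) 1)
    (hz : z = lift h c + s • lift h a + t • lift h b + x • axis h g) :
    ∃ y ∈ base h θ c a b g, ∃ τ : ℝ, z = y + τ • dir h g := by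
  refine ⟨z - inner ℝ z (dir h g) • dir h g, ⟨?_, ?_⟩, inner ℝ z (dir h g), by abel⟩
  · have hy : z - inner ℝ z (dir h g) • dir h g =
        lift h c + s • lift h a + t • lift h b +
          (x - inner ℝ z (dir h g) * ‖axis h g‖⁻¹) • axis h g := by
      generalize inner ℝ z (dir h g) = τ
      rw [hz]
      unfold dir
      module
    obtain ⟨e1, e2⟩ := coord_of_eq hh c g ha hba hab hy
    refine ⟨?_, ?_⟩
    · rw [e1]; exact ⟨by linarith [hs.1], by linarith [hs.2]⟩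
    · rw [e2]; exact ⟨by linarith [ht.1], by linarith [ht.2]⟩
  · show inner ℝ (z - inner ℝ z (dir h g) • dir h g) (dir h g) = 0
    rw [inner_sub_left, inner_smul_left, real_inner_self_eq_norm_sq, norm_dir]
    simp

/-- The base is contained in a closed parallelogram spanned by the projected lifts. -/
theorem base_subset {h : ℝ} (hh : h ≠ 0) (c g : E2) {a b : E2} (ha : a ≠ 0)
    (hba : ‖b‖ = ‖a‖) (hab : inner ℝ a b = 0) {θ : ℝ} (hθ : 0 < θ) :
    base h θ c a b g ⊆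
      {x : E3 | ∃ s ∈ Set.Icc (0 : ℝ) 1, ∃ t ∈ Set.Icc (0 : ℝ) 1,
        x = (prj (dir h g) (lift h c) - θ • prj (dir h g) (lift h a) -
              θ • prj (dir h g) (lift h b)) +
            s • ((1 + 2 * θ) • prj (dir h g) (lift h a)) +
            t • ((1 + 2 * θ) • prj (dir h g) (lift h b))} := by
  rintro y ⟨⟨hS, hT⟩, hyu⟩
  have hyu' : inner ℝ y (dir h g) = 0 := hyu
  have hpos : (0 : ℝ) < 1 + 2 * θ := by linarith
  have hd := decomp hh c g ha hba hab y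
  set S := coord h c a g y with hSdef
  set T := coord h c b g y with hTdef
  -- the component along the axis vanishes
  have e : inner ℝ (lift h c) (dir h g) + S * inner ℝ (lift h a) (dir h g) +
      T * inner ℝ (lift h b) (dir h g) + y 0 * ‖axis h g‖ = 0 := by
    have h1 := hyu'
    rw [hd] at h1
    have h2 : inner ℝ (axis h g) (dir h g) = ‖axis h g‖ := by
      conv_lhs => rw [axis_eq h g]
      rw [inner_smul_left, real_inner_self_eq_norm_sq, norm_dir]; simp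
    simp only [inner_add_left, inner_smul_left, h2] at h1
    simpa using h1
  have e' : y 0 * ‖axis h g‖ = -(inner ℝ (lift h c) (dir h g) +
      S * inner ℝ (lift h a) (dir h g) + T * inner ℝ (lift h b) (dir h g)) := by linarith
  have hy : y = prj (dir h g) (lift h c) + S • prj (dir h g) (lift h a) +
      T • prj (dir h g) (lift h b) := by
    conv_lhs => rw [hd, axis_eq h g, smul_smul, e']
    unfold prj
    module
  refine ⟨(S + θ) / (1 + 2 * θ), ⟨?_, ?_⟩, (T + θ) / (1 + 2 * θ), ⟨?_, ?_⟩, ?_⟩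
  · exact div_nonneg (by linarith [hS.1]) hpos.le
  · rw [div_le_one hpos]; linarith [hS.2]
  · exact div_nonneg (by linarith [hT.1]) hpos.le
  · rw [div_le_one hpos]; linarith [hT.2]
  · rw [smul_smul, smul_smul, div_mul_cancel₀ _ hpos.ne', div_mul_cancel₀ _ hpos.ne']
    conv_lhs => rw [hy]
    module

theorem isBounded_base {h : ℝ} (hh : h ≠ 0) (c g : E2) {a b : E2} (ha : a ≠ 0)
    (hba : ‖b‖ = ‖a‖) (hab : inner ℝ a b = 0) {θ : ℝ} (hθ : 0 < θ) :
    Bornology.IsBounded (base h θ c a b g) := by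
  refine (Metric.isBounded_closedBall (x := (0 : E3))
    (r := ‖prj (dir h g) (lift h c) - θ • prj (dir h g) (lift h a) -
              θ • prj (dir h g) (lift h b)‖ + ‖(1 + 2 * θ) • prj (dir h g) (lift h a)‖ +
              ‖(1 + 2 * θ) • prj (dir h g) (lift h b)‖)).subset ?_
  intro y hy
  obtain ⟨s, hs, t, ht, rfl⟩ := base_subset hh c g ha hba hab hθ hy
  rw [mem_closedBall_zero_iff]
  refine (norm_add₃_le).trans ?_
  have h1 : ‖s • ((1 + 2 * θ) • prj (dir h g) (lift h a))‖ ≤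
      ‖(1 + 2 * θ) • prj (dir h g) (lift h a)‖ := by
    rw [norm_smul, Real.norm_eq_abs, abs_of_nonneg hs.1]
    exact mul_le_of_le_one_left (norm_nonneg _) hs.2
  have h2 : ‖t • ((1 + 2 * θ) • prj (dir h g) (lift h b))‖ ≤
      ‖(1 + 2 * θ) • prj (dir h g) (lift h b)‖ := by
    rw [norm_smul, Real.norm_eq_abs, abs_of_nonneg ht.1]
    exact mul_le_of_le_one_left (norm_nonneg _) ht.2
  linarith

/-- Gram determinant of two scaled projections along a unit vector. -/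
theorem gram_prj_smul (u x y : E3) (hu : ‖u‖ = 1) (r : ℝ) :
    gram (r • prj u x) (r • prj u y) =
      r ^ 4 * ((‖x‖ ^ 2 - inner ℝ x u ^ 2) * (‖y‖ ^ 2 - inner ℝ y u ^ 2) -
        (inner ℝ x y - inner ℝ x u * inner ℝ y u) ^ 2) := by
  unfold gram prj
  rw [← real_inner_self_eq_norm_sq, ← real_inner_self_eq_norm_sq]
  simp only [inner_smul_left, inner_smul_right, inner_sub_left, inner_sub_right,
    real_inner_self_eq_norm_sq, hu, real_inner_comm x u, real_inner_comm y u,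
    RCLike.conj_to_real]
  ring

/-- The area (square root of the Gram determinant) of the enlarged projected parallelogram. -/
theorem sqrt_gram_base {h : ℝ} (hh : 0 < h) (g : E2) {a b : E2} (ha : a ≠ 0)
    (hba : ‖b‖ = ‖a‖) (hab : inner ℝ a b = 0) {θ : ℝ} (hθ : 0 < θ) :
    Real.sqrt (gram ((1 + 2 * θ) • prj (dir h g) (lift h a))
        ((1 + 2 * θ) • prj (dir h g) (lift h b))) =
      (1 + 2 * θ) ^ 2 * (h * (‖a‖ ^ 2 / Real.sqrt (1 + g 0 ^ 2 + h ^ 2 * g 1 ^ 2))) := by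
  have h1 : a 0 ^ 2 + a 1 ^ 2 = ‖a‖ ^ 2 := (normsq2 a).symm
  have h2 : b 0 ^ 2 + b 1 ^ 2 = ‖a‖ ^ 2 := by rw [← hba]; exact (normsq2 b).symm
  have h3 : a 0 * b 0 + a 1 * b 1 = 0 := by rw [← inner2]; exact hab
  have hΓ : 0 < 1 + g 0 ^ 2 + h ^ 2 * g 1 ^ 2 := by positivity
  have hn := norm_axis h g
  have hnpos := norm_axis_pos h g
  set n := ‖axis h g‖ with hndef
  have hn2 : n ^ 2 = 1 + g 0 ^ 2 + h ^ 2 * g 1 ^ 2 := normsq_axis h g
  have hν : n⁻¹ ^ 2 * (1 + g 0 ^ 2 + h ^ 2 * g 1 ^ 2) = 1 := by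
    rw [← hn2]; field_simp
  have hΔ : (a 0 * b 1 - a 1 * b 0) ^ 2 = (‖a‖ ^ 2) ^ 2 := by
    linear_combination (b 0 ^ 2 + b 1 ^ 2) * h1 + (‖a‖ ^ 2) * h2 - (a 0 * b 0 + a 1 * b 1) * h3
  have key : gram ((1 + 2 * θ) • prj (dir h g) (lift h a))
      ((1 + 2 * θ) • prj (dir h g) (lift h b)) =
      ((1 + 2 * θ) ^ 2 * (h * (‖a‖ ^ 2 * n⁻¹))) ^ 2 := by
    rw [gram_prj_smul _ _ _ (norm_dir h g)]
    have ia : inner ℝ (lift h a) (dir h g) = n⁻¹ * (a 0 * g 0 + h ^ 2 * (a 1 * g 1)) := by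
      unfold dir; rw [inner_smul_right, inner3]; simp; ring
    have ib : inner ℝ (lift h b) (dir h g) = n⁻¹ * (b 0 * g 0 + h ^ 2 * (b 1 * g 1)) := by
      unfold dir; rw [inner_smul_right, inner3]; simp; ring
    have iab : inner ℝ (lift h a) (lift h b) = a 0 * b 0 + h ^ 2 * (a 1 * b 1) := by
      rw [inner3]; simp; ring
    have na : ‖lift h a‖ ^ 2 = a 0 ^ 2 + h ^ 2 * a 1 ^ 2 := by
      rw [normsq3]; simp; ring
    have nb : ‖lift h b‖ ^ 2 = b 0 ^ 2 + h ^ 2 * b 1 ^ 2 := by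
      rw [normsq3]; simp; ring
    rw [ia, ib, iab, na, nb]
    linear_combination (-(1 + 2 * θ) ^ 4 * h ^ 2 * (a 0 * b 1 - a 1 * b 0) ^ 2) * hν +
      ((1 + 2 * θ) ^ 4 * h ^ 2 * n⁻¹ ^ 2) * hΔ
  rw [key, Real.sqrt_sq (by positivity), ← hn]
  rw [div_eq_mul_inv]

/-- Area bound for the base. -/
theorem area_base_le {h : ℝ} (hh : 0 < h) (c g : E2) {a b : E2} (ha : a ≠ 0)
    (hba : ‖b‖ = ‖a‖) (hab : inner ℝ a b = 0) {θ : ℝ} (hθ : 0 < θ) :
    (μHE[2] (base h θ c a b g)).toReal ≤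
      (1 + 2 * θ) ^ 2 * (h * (‖a‖ ^ 2 / Real.sqrt (1 + g 0 ^ 2 + h ^ 2 * g 1 ^ 2))) := by
  have hsub := base_subset hh.ne' c g ha hba hab hθ
  have hle := measure_mono (μ := (μHE[2] : Measure E3)) hsub
  rw [muHE_parallelogram, sqrt_gram_base hh g ha hba hab hθ] at hle
  exact ENNReal.toReal_le_of_le_ofReal (by positivity) hle

/-- **P7 (backup).** The statement of S0329 follows from the statement of S0326. -/
theorem main_of
    (h326 : ∀ (D : Set (EuclideanSpace ℝ (Fin 2))) (_ : IsCompact D)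
      (V : EuclideanSpace ℝ (Fin 2) → EuclideanSpace ℝ (Fin 2))
      (U : Set (EuclideanSpace ℝ (Fin 2))) (_ : IsOpen U) (_ : D ⊆ U) (_ : ContDiffOn ℝ 1 V U)
      (L h : ℝ) (_ : 0 < L) (_ : 0 < h)
      (_ : ∀ p ∈ D, LinearMap.trace ℝ _ (fderiv ℝ V p).toLinearMap = 0)
      (_ : ∀ p ∈ D, -(L ^ 2)⁻¹ < LinearMap.det (fderiv ℝ V p).toLinearMap ∧
        LinearMap.det (fderiv ℝ V p).toLinearMap ≤ 0)
      (ε : ℝ) (_ : 0 < ε),
      ∃ (k : ℕ) (c a b g : Fin k → EuclideanSpace ℝ (Fin 2)),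
        (∀ i, a i ≠ 0 ∧ ‖b i‖ = ‖a i‖ ∧ inner ℝ (a i) (b i) = 0) ∧
        {z : ℝ × EuclideanSpace ℝ (Fin 2) | ∃ p ∈ D, abs z.1 ≤ L ∧ z.2 = p + z.1 • V p} ⊆
          ⋃ i, {z : ℝ × EuclideanSpace ℝ (Fin 2) | ∃ x ∈ Set.Icc (0 : ℝ) 1,
            ∃ y ∈ Set.Icc (0 : ℝ) 1, z.2 = c i + x • a i + y • b i + z.1 • g i} ∧
        ∑ i, ‖a i‖ ^ 2 / Real.sqrt (1 + (g i 0) ^ 2 + h ^ 2 * (g i 1) ^ 2) ≤
          (∫ p in D, 1 / Real.sqrt (1 + (V p 0) ^ 2 + h ^ 2 * (V p 1) ^ 2)) + ε)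
    (h M : ℝ) (hh : 0 < h) (hM : 0 < M) (D : Set (EuclideanSpace ℝ (Fin 2))) (hD : IsCompact D)
    (hbd : volume (frontier D) = 0)
    (V : EuclideanSpace ℝ (Fin 2) → EuclideanSpace ℝ (Fin 2)) (U : Set (EuclideanSpace ℝ (Fin 2)))
    (hU : IsOpen U) (hDU : D ⊆ U) (hV : ContDiffOn ℝ 1 V U)
    (htr : ∀ p ∈ D, LinearMap.trace ℝ _ (fderiv ℝ V p).toLinearMap = 0)
    (hdet : ∀ p ∈ D, -(M ^ 2)⁻¹ < LinearMap.det (fderiv ℝ V p).toLinearMap ∧
      LinearMap.det (fderiv ℝ V p).toLinearMap < 0)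
    (ε : ℝ) (hε : 0 < ε) :
    ∃ (k : ℕ) (u : Fin k → EuclideanSpace ℝ (Fin 3)) (B : Fin k → Set (EuclideanSpace ℝ (Fin 3))),
      (∀ i, ‖u i‖ = 1) ∧
      (∀ i, Bornology.IsBounded (B i) ∧ ∃ O : Set (EuclideanSpace ℝ (Fin 3)), IsOpen O ∧
        B i = O ∩ {x | inner ℝ x (u i) = 0}) ∧
      {z : EuclideanSpace ℝ (Fin 3) | ∃ p ∈ D, ∃ x : ℝ, abs x ≤ M ∧
          z = !₂[x, p 0 + x * V p 0, h * (p 1 + x * V p 1)]} ⊆
        ⋃ i, {z : EuclideanSpace ℝ (Fin 3) | ∃ y ∈ B i, ∃ τ : ℝ, z = y + τ • u i} ∧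
      ∑ i, (μHE[2] (B i)).toReal ≤
        h * (∫ p in D, 1 / Real.sqrt (1 + (V p 0) ^ 2 + h ^ 2 * (V p 1) ^ 2)) + ε := by
  obtain ⟨k, c, a, b, g, hsq, hcov, hsum⟩ := h326 D hD V U hU hDU hV M h hM hh htr
    (fun p hp => ⟨(hdet p hp).1, (hdet p hp).2.le⟩) (ε / (2 * h)) (by positivity)
  set I := ∫ p in D, 1 / Real.sqrt (1 + (V p 0) ^ 2 + h ^ 2 * (V p 1) ^ 2) with hIdef
  have hI : 0 ≤ I := integral_nonneg (fun p => by positivity)
  have hW : 0 < h * I + ε / 2 := by positivity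
  set θ := min 1 (ε / (16 * (h * I + ε / 2))) with hθdef
  have hθ : 0 < θ := lt_min one_pos (by positivity)
  have hθ1 : θ ≤ 1 := min_le_left _ _
  have hθ2 : θ * (16 * (h * I + ε / 2)) ≤ ε := by
    have : θ ≤ ε / (16 * (h * I + ε / 2)) := min_le_right _ _
    rwa [le_div_iff₀ (by positivity)] at this
  refine ⟨k, fun i => dir h (g i), fun i => base h θ (c i) (a i) (b i) (g i),
    fun i => norm_dir h (g i), fun i => ⟨?_, _, isOpen_openSet h θ (c i) (a i) (b i) (g i), rfl⟩,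
    ?_, ?_⟩
  · exact isBounded_base hh.ne' (c i) (g i) (hsq i).1 (hsq i).2.1 (hsq i).2.2 hθ
  · rintro z ⟨p, hp, x, hx, rfl⟩
    have hmem : ((x, p + x • V p) : ℝ × EuclideanSpace ℝ (Fin 2)) ∈
        {z : ℝ × EuclideanSpace ℝ (Fin 2) | ∃ p ∈ D, abs z.1 ≤ M ∧ z.2 = p + z.1 • V p} :=
      ⟨p, hp, hx, rfl⟩
    have hmem2 := hcov hmem
    rw [Set.mem_iUnion] at hmem2
    obtain ⟨i, s, hs, t, ht, e⟩ := hmem2
    have e' : p + x • V p = c i + s • a i + t • b i + x • g i := e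
    have e0 : p 0 + x * V p 0 = c i 0 + s * a i 0 + t * b i 0 + x * g i 0 := by
      have := congrArg (fun v : EuclideanSpace ℝ (Fin 2) => v 0) e'
      simpa using this
    have e1 : p 1 + x * V p 1 = c i 1 + s * a i 1 + t * b i 1 + x * g i 1 := by
      have := congrArg (fun v : EuclideanSpace ℝ (Fin 2) => v 1) e'
      simpa using this
    rw [Set.mem_iUnion]
    refine ⟨i, cover_piece hh.ne' (c i) (g i) (hsq i).1 (hsq i).2.1 (hsq i).2.2 hθ hs ht
      (x := x) ?_⟩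
    refine ext3 ?_ ?_ ?_
    · simp
    · simp only [PiLp.add_apply, PiLp.smul_apply, smul_eq_mul, lift_one, axis_one]
      simpa using e0
    · simp only [PiLp.add_apply, PiLp.smul_apply, smul_eq_mul, lift_two, axis_two]
      have : (![x, p 0 + x * V p 0, h * (p 1 + x * V p 1)] : Fin 3 → ℝ) 2 =
          h * (p 1 + x * V p 1) := rfl
      rw [this, e1]; ring
  · have hle : ∑ i, (μHE[2] (base h θ (c i) (a i) (b i) (g i))).toReal ≤
        ∑ i, (1 + 2 * θ) ^ 2 *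
          (h * (‖a i‖ ^ 2 / Real.sqrt (1 + (g i 0) ^ 2 + h ^ 2 * (g i 1) ^ 2))) :=
      Finset.sum_le_sum (fun i _ =>
        area_base_le hh (c i) (g i) (hsq i).1 (hsq i).2.1 (hsq i).2.2 hθ)
    rw [← Finset.mul_sum, ← Finset.mul_sum] at hle
    refine hle.trans ?_
    set Sg := ∑ i, ‖a i‖ ^ 2 / Real.sqrt (1 + (g i 0) ^ 2 + h ^ 2 * (g i 1) ^ 2) with hSg
    have h1 : h * Sg ≤ h * I + ε / 2 := by
      have := mul_le_mul_of_nonneg_left hsum hh.le
      have e : h * (I + ε / (2 * h)) = h * I + ε / 2 := by field_simp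
      linarith
    have h2 : (1 + 2 * θ) ^ 2 * (h * Sg) ≤ (1 + 2 * θ) ^ 2 * (h * I + ε / 2) :=
      mul_le_mul_of_nonneg_left h1 (by positivity)
    have h3 : (1 + 2 * θ) ^ 2 * (h * I + ε / 2) ≤ h * I + ε := by
      have : (1 + 2 * θ) ^ 2 ≤ 1 + 8 * θ := by nlinarith
      nlinarith
    linarith

end Crest.Agent.S0329.Helper92
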